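import Vale.Agent.P084.U.Main
import Vale.Agent.P084.U.GL

/-! Sup-normed products `E × F` where the inner points of the unit spheres of both `E` and `F` are
dense (for instance both finite-dimensional).  Definitions. -/

namespace Vale.Agent.P084

universe u v w

variable {E : Type u} {F : Type v} {W : Type w}
  [NormedAddCommGroup E] [NormedSpace ℝ E] [NormedAddCommGroup F] [NormedSpace ℝ F]
  [NormedAddCommGroup W] [NormedSpace ℝ W]

/-- radius form of `InnerPt` -/
def InnerRad (a : E) (r : ℝ) : Prop :=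
  ∀ e : E, ‖e‖ = 1 → ‖a + e‖ = 2 → e ≠ a →
    ‖a + (r / ‖e - a‖) • (e - a)‖ = 1 ∧ ‖a - (r / ‖e - a‖) • (e - a)‖ = 1

/-- `a` is an inner point of the sphere: every segment of the sphere that starts at `a` can be
extended (or cut) to a segment of the sphere with midpoint `a` and half length `r`, with the same
`r > 0` for all segments.  Rotund points (no segment) and flat points are inner points. -/
def InnerPt (a : E) : Prop := ∃ r : ℝ, 0 < r ∧ InnerRad a r

/-- the inner points are dense in the unit sphere -/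
def InnerDense (E : Type u) [NormedAddCommGroup E] [NormedSpace ℝ E] : Prop :=
  ∀ x : E, ‖x‖ = 1 → ∀ ε : ℝ, 0 < ε → ∃ a : E, ‖a‖ = 1 ∧ ‖a - x‖ < ε ∧ InnerPt a

/-- `f` preserves midpoints on the open leaf over `a` -/
def LeafMid (f : E × F → W) (a : E) : Prop :=
  ∀ u u' : F, ‖u‖ < 1 → ‖u'‖ < 1 →
    f (a, (1 / 2 : ℝ) • (u + u')) = (1 / 2 : ℝ) • (f (a, u) + f (a, u'))

/-- `f` is affine on the leaf `{a} × B_F` -/
def LeafAff (f : E × F → W) (a : E) : Prop :=
  ∃ A : F →L[ℝ] W, (∀ u, ‖u‖ ≤ 1 → f (a, u) = f (a, 0) + A u) ∧ ∀ u, ‖A u‖ = ‖u‖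

/-- `f` is affine on the leaf `B_E × {s}` -/
def SideAff (f : E × F → W) (s : F) : Prop :=
  ∃ B : E →L[ℝ] W, (∀ x, ‖x‖ ≤ 1 → f (x, s) = f (0, s) + B x) ∧ ∀ x, ‖B x‖ = ‖x‖

end Vale.Agent.P084
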