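import Vale.Agent.P084.V.Defs

/-! In a finite-dimensional normed space the inner points are dense in the unit sphere. -/

namespace Vale.Agent.P084

open Metric Set

universe u

variable {E : Type u} [NormedAddCommGroup E] [NormedSpace ℝ E]

/-- VF0.  Convexity of the norm along a segment: `a + s • z = (1 - s / δ) • a + (s / δ) • (a + δ • z)`. -/
lemma norm_seg_le {a z : E} {δ s : ℝ} (hδ : 0 < δ) (hs0 : 0 ≤ s) (hs : s ≤ δ)
    (h : ‖a + δ • z‖ ≤ ‖a‖) : ‖a + s • z‖ ≤ ‖a‖ := by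
  have e : a + s • z = (1 - s / δ) • a + (s / δ) • (a + δ • z) := by
    rw [smul_add, smul_smul, div_mul_cancel₀ _ hδ.ne', ← add_assoc, ← add_smul]
    simp
  have h1 : 0 ≤ s / δ := div_nonneg hs0 hδ.le
  have h2 : s / δ ≤ 1 := (div_le_one hδ).2 hs
  rw [e]
  calc ‖(1 - s / δ) • a + (s / δ) • (a + δ • z)‖
      ≤ ‖(1 - s / δ) • a‖ + ‖(s / δ) • (a + δ • z)‖ := norm_add_le _ _
    _ = (1 - s / δ) * ‖a‖ + (s / δ) * ‖a + δ • z‖ := by
        rw [norm_smul, norm_smul, Real.norm_of_nonneg h1, Real.norm_of_nonneg (by linarith)]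
    _ ≤ (1 - s / δ) * ‖a‖ + (s / δ) * ‖a‖ := by
        have := mul_le_mul_of_nonneg_left h h1
        linarith
    _ = ‖a‖ := by ring

/-- VF1.  The directions of the segments of the sphere of radius `‖a‖` with midpoint `a`.
Sketch.  zero: `δ = 1`.  add: for `z1` (`δ1`), `z2` (`δ2`) take `δ = min δ1 δ2 / 2`;
`a + δ • (z1 + z2) = (1/2) • (a + (2 δ) • z1) + (1/2) • (a + (2 δ) • z2)` and `norm_seg_le`; the same for
`-`: write `a - δ • z = a + δ • (-z)`.  smul: `c = 0` trivial; otherwise `δ' = δ / |c|`, and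
`δ' • c • z = ± δ • z`. -/
def faceDir (a : E) : Submodule ℝ E where
  carrier := {z | ∃ δ : ℝ, 0 < δ ∧ ‖a + δ • z‖ ≤ ‖a‖ ∧ ‖a - δ • z‖ ≤ ‖a‖}
  add_mem' := by
    rintro z1 z2 ⟨δ1, h1, h1p, h1m⟩ ⟨δ2, h2, h2p, h2m⟩
    have hmin : 0 < min δ1 δ2 := lt_min h1 h2
    have key : ∀ w1 w2 : E, ‖a + δ1 • w1‖ ≤ ‖a‖ → ‖a + δ2 • w2‖ ≤ ‖a‖ →
        ‖a + (min δ1 δ2 / 2) • (w1 + w2)‖ ≤ ‖a‖ := by
      intro w1 w2 hw1 hw2
      have e1 := norm_seg_le h1 hmin.le (min_le_left δ1 δ2) hw1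
      have e2 := norm_seg_le h2 hmin.le (min_le_right δ1 δ2) hw2
      have e : a + (min δ1 δ2 / 2) • (w1 + w2) =
          (1 / 2 : ℝ) • (a + min δ1 δ2 • w1) + (1 / 2 : ℝ) • (a + min δ1 δ2 • w2) := by
        simp only [smul_add, smul_smul]
        have : a = (1 / 2 : ℝ) • a + (1 / 2 : ℝ) • a := by
          rw [← add_smul]; norm_num
        nth_rewrite 1 [this]
        have e3 : (1 / 2 : ℝ) * min δ1 δ2 = min δ1 δ2 / 2 := by ring
        rw [e3]
        abel
      rw [e]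
      calc ‖(1 / 2 : ℝ) • (a + min δ1 δ2 • w1) + (1 / 2 : ℝ) • (a + min δ1 δ2 • w2)‖
          ≤ ‖(1 / 2 : ℝ) • (a + min δ1 δ2 • w1)‖ + ‖(1 / 2 : ℝ) • (a + min δ1 δ2 • w2)‖ :=
            norm_add_le _ _
        _ = (1 / 2) * ‖a + min δ1 δ2 • w1‖ + (1 / 2) * ‖a + min δ1 δ2 • w2‖ := by
            rw [norm_smul, norm_smul]; norm_num
        _ ≤ ‖a‖ := by linarith
    refine ⟨min δ1 δ2 / 2, by positivity, key z1 z2 h1p h2p, ?_⟩
    have := key (-z1) (-z2) (by simpa [sub_eq_add_neg] using h1m)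
      (by simpa [sub_eq_add_neg] using h2m)
    have e : a - (min δ1 δ2 / 2) • (z1 + z2) = a + (min δ1 δ2 / 2) • (-z1 + -z2) := by
      rw [← neg_add, smul_neg, sub_eq_add_neg]
    rw [e]
    exact this
  zero_mem' := ⟨1, one_pos, by simp, by simp⟩
  smul_mem' := by
    rintro c z ⟨δ, h, hp, hm⟩
    by_cases hc : c = 0
    · subst hc
      exact ⟨1, one_pos, by simp, by simp⟩
    have hc' : 0 < |c| := abs_pos.2 hc
    refine ⟨δ / |c|, by positivity, ?_, ?_⟩
    · rcases abs_cases c with ⟨e, _⟩ | ⟨e, _⟩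
      · rw [e, smul_smul, div_mul_cancel₀ _ hc]
        exact hp
      · rw [e, smul_smul]
        have : δ / -c * c = -δ := by field_simp
        rw [this, neg_smul, ← sub_eq_add_neg]
        exact hm
    · rcases abs_cases c with ⟨e, _⟩ | ⟨e, _⟩
      · rw [e, smul_smul, div_mul_cancel₀ _ hc]
        exact hm
      · rw [e, smul_smul]
        have : δ / -c * c = -δ := by field_simp
        rw [this, neg_smul, sub_neg_eq_add]
        exact hp

lemma mem_faceDir {a z : E} :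
    z ∈ faceDir a ↔ ∃ δ : ℝ, 0 < δ ∧ ‖a + δ • z‖ ≤ ‖a‖ ∧ ‖a - δ • z‖ ≤ ‖a‖ := Iff.rfl

/-- VF2.  Sketch: `al = (1 - l) • a + l • e` has norm one (`norm_comb_of_add`, U/Face.lean).  If
`‖a ± δ • z‖ ≤ 1` then `al ± ((1 - l) δ) • z = (1 - l) • (a ± δ • z) + l • e` has norm at most one. -/
lemma faceDir_mono {a e : E} (ha : ‖a‖ = 1) (he : ‖e‖ = 1) (h : ‖a + e‖ = 2) {l : ℝ} (hl0 : 0 < l)
    (hl1 : l < 1) : faceDir a ≤ faceDir ((1 - l) • a + l • e) := by
  intro z hz
  obtain ⟨δ, hδ, hp, hm⟩ := hz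
  rw [ha] at hp hm
  have hn : ‖(1 - l) • a + l • e‖ = 1 := by
    rw [norm_comb_of_add ha he h (by linarith) hl0.le]
    ring
  have key : ∀ w : E, ‖a + δ • w‖ ≤ 1 → ‖(1 - l) • a + l • e + ((1 - l) * δ) • w‖ ≤ 1 := by
    intro w hw
    have e1 : (1 - l) • a + l • e + ((1 - l) * δ) • w = (1 - l) • (a + δ • w) + l • e := by
      rw [smul_add, smul_smul]
      abel
    rw [e1]
    calc ‖(1 - l) • (a + δ • w) + l • e‖ ≤ ‖(1 - l) • (a + δ • w)‖ + ‖l • e‖ := norm_add_le _ _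
      _ = (1 - l) * ‖a + δ • w‖ + l * 1 := by
          rw [norm_smul, norm_smul, he, Real.norm_of_nonneg hl0.le,
            Real.norm_of_nonneg (by linarith)]
      _ ≤ 1 := by nlinarith
  refine ⟨(1 - l) * δ, mul_pos (by linarith) hδ, ?_, ?_⟩
  · rw [hn]
    exact key z hp
  · rw [hn]
    have := key (-z) (by simpa [sub_eq_add_neg] using hm)
    simpa [sub_eq_add_neg] using this

/-- VF3.  Sketch: with `δ = min l (1 - l)`,
`((1 - l) • a + l • e) ± δ • (e - a) = (1 - l ∓ δ) • a + (l ± δ) • e` has norm one (`norm_comb_of_add`). -/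
lemma sub_mem_faceDir {a e : E} (ha : ‖a‖ = 1) (he : ‖e‖ = 1) (h : ‖a + e‖ = 2) {l : ℝ}
    (hl0 : 0 < l) (hl1 : l < 1) : e - a ∈ faceDir ((1 - l) • a + l • e) := by
  have hn : ‖(1 - l) • a + l • e‖ = 1 := by
    rw [norm_comb_of_add ha he h (by linarith) hl0.le]
    ring
  have hmin : 0 < min l (1 - l) := lt_min hl0 (by linarith)
  have h1 := min_le_left l (1 - l)
  have h2 := min_le_right l (1 - l)
  refine ⟨min l (1 - l), hmin, ?_, ?_⟩
  · have e1 : (1 - l) • a + l • e + min l (1 - l) • (e - a) =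
        (1 - l - min l (1 - l)) • a + (l + min l (1 - l)) • e := by
      generalize min l (1 - l) = d
      module
    rw [e1, hn, norm_comb_of_add ha he h (by linarith) (by linarith)]
    linarith
  · have e1 : (1 - l) • a + l • e - min l (1 - l) • (e - a) =
        (1 - l + min l (1 - l)) • a + (l - min l (1 - l)) • e := by
      generalize min l (1 - l) = d
      module
    rw [e1, hn, norm_comb_of_add ha he h (by linarith) (by linarith)]
    linarith

/-- VF4.  A uniform radius.  Sketch: `L = faceDir a` is finite-dimensional; take a basis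
`b = Module.finBasis ℝ L` (`k` vectors) and `δ i > 0` for `b i`; the coordinate functionals are continuous
(`LinearMap.continuous_of_finiteDimensional`), so `|b.repr z i| ≤ C ‖z‖`.  If `k C ‖z‖ ≤ δ i` for all `i`, then
`a + z = ∑ i, k⁻¹ • (a + (k * b.repr z i) • b i)` is a convex combination of vectors of norm at most one
(`norm_seg_le`, for `b i` or `- b i`), so `‖a + z‖ ≤ 1`; the same for `-z`; and `‖a + z‖ + ‖a - z‖ ≥ 2`.
(`k = 0`: `z = 0`.)  Alternative: the set `{z : L | ‖a + z‖ ≤ 1 ∧ ‖a - z‖ ≤ 1}` is convex, symmetric and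
absorbing, so it is a neighbourhood of zero. -/
lemma faceDir_radius [FiniteDimensional ℝ E] {a : E} (ha : ‖a‖ = 1) :
    ∃ r : ℝ, 0 < r ∧ ∀ z ∈ faceDir a, ‖z‖ ≤ r → ‖a + z‖ = 1 := by
  classical
  let b := Module.finBasis ℝ (faceDir a)
  have hδ : ∀ i, ∃ δ : ℝ, 0 < δ ∧ ‖a + δ • (b i : E)‖ ≤ ‖a‖ ∧ ‖a - δ • (b i : E)‖ ≤ ‖a‖ :=
    fun i => (b i).2
  choose δ hδ0 hδp hδm using hδ
  have hseg : ∀ i (t : ℝ), |t| ≤ δ i → ‖a + t • (b i : E)‖ ≤ 1 := by
    intro i t ht
    rcases le_total 0 t with h0 | h0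
    · have := norm_seg_le (hδ0 i) h0 (by rwa [abs_of_nonneg h0] at ht) (hδp i)
      rwa [ha] at this
    · have h1 : ‖a + δ i • (-(b i : E))‖ ≤ ‖a‖ := by
        rw [smul_neg, ← sub_eq_add_neg]; exact hδm i
      have := norm_seg_le (hδ0 i) (neg_nonneg.2 h0) (by rwa [abs_of_nonpos h0] at ht) h1
      rw [ha] at this
      simpa using this
  let C : Fin (Module.finrank ℝ (faceDir a)) → ℝ :=
    fun i => ‖LinearMap.toContinuousLinearMap (b.coord i)‖
  have hC : ∀ i (z : faceDir a), |b.coord i z| ≤ C i * ‖z‖ := by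
    intro i z
    have := (LinearMap.toContinuousLinearMap (b.coord i)).le_opNorm z
    simpa using this
  have hC0 : ∀ i, 0 ≤ C i := fun i => norm_nonneg (LinearMap.toContinuousLinearMap (b.coord i))
  set K : ℝ := (Module.finrank ℝ (faceDir a) : ℝ) + 1 with hK
  have hKpos : 0 < K := by positivity
  set R : ℝ := ∑ i, (K * C i + 1) / δ i + 1 with hR
  have hterm : ∀ i, 0 ≤ (K * C i + 1) / δ i := fun i =>
    div_nonneg (by have := hC0 i; positivity) (hδ0 i).le
  have hRpos : 0 < R := by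
    have := Finset.sum_nonneg (s := Finset.univ) (fun i _ => hterm i)
    linarith
  have hRi : ∀ i, (K * C i + 1) / δ i ≤ R := by
    intro i
    have := Finset.single_le_sum (f := fun i => (K * C i + 1) / δ i) (fun i _ => hterm i)
      (Finset.mem_univ i)
    linarith
  have hle : ∀ z : faceDir a, ‖z‖ ≤ R⁻¹ → ‖a + (z : E)‖ ≤ 1 := by
    intro z hz
    have hz' : (z : E) = ∑ i, b.coord i z • (b i : E) := by
      have := congrArg (Subtype.val) (b.sum_repr z)
      simp only [Submodule.coe_sum, Submodule.coe_smul] at this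
      exact this.symm
    have hsum : a + (z : E) =
        K⁻¹ • a + ∑ i, K⁻¹ • (a + (K * b.coord i z) • (b i : E)) := by
      have e1 : ∀ i, K⁻¹ • (a + (K * b.coord i z) • (b i : E)) =
          K⁻¹ • a + b.coord i z • (b i : E) := by
        intro i
        rw [smul_add, smul_smul, ← mul_assoc, inv_mul_cancel₀ hKpos.ne', one_mul]
      rw [Finset.sum_congr rfl (fun i _ => e1 i), Finset.sum_add_distrib, ← hz', Finset.sum_const,
        Finset.card_univ, Fintype.card_fin, ← add_assoc, ← Nat.cast_smul_eq_nsmul ℝ, smul_smul,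
        ← add_smul]
      have : K⁻¹ + (Module.finrank ℝ (faceDir a) : ℝ) * K⁻¹ = 1 := by
        rw [hK]; field_simp; ring
      rw [this, one_smul]
    have hbd : ∀ i, ‖K⁻¹ • (a + (K * b.coord i z) • (b i : E))‖ ≤ K⁻¹ := by
      intro i
      rw [norm_smul, Real.norm_of_nonneg (inv_nonneg.2 hKpos.le)]
      have h1 : |K * b.coord i z| ≤ δ i := by
        rw [abs_mul, abs_of_pos hKpos]
        have h2 := hC i z
        have h3 : C i * ‖z‖ ≤ C i * R⁻¹ := mul_le_mul_of_nonneg_left hz (hC0 i)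
        have h4 : (K * C i + 1) ≤ R * δ i := (div_le_iff₀ (hδ0 i)).1 (hRi i)
        have h5 : K * (C i * R⁻¹) ≤ δ i := by
          rw [← mul_assoc, ← div_eq_mul_inv, div_le_iff₀ hRpos]
          linarith
        calc K * |b.coord i z| ≤ K * (C i * R⁻¹) :=
              mul_le_mul_of_nonneg_left (h2.trans h3) hKpos.le
          _ ≤ δ i := h5
      have := hseg i _ h1
      calc K⁻¹ * _ ≤ K⁻¹ * 1 := mul_le_mul_of_nonneg_left this (inv_nonneg.2 hKpos.le)
        _ = K⁻¹ := mul_one _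
    rw [hsum]
    calc _ ≤ ‖K⁻¹ • a‖ + ‖∑ i, K⁻¹ • (a + (K * b.coord i z) • (b i : E))‖ := norm_add_le _ _
      _ ≤ K⁻¹ + ∑ _i : Fin (Module.finrank ℝ (faceDir a)), K⁻¹ := by
          apply add_le_add
          · rw [norm_smul, ha, mul_one, Real.norm_of_nonneg (inv_nonneg.2 hKpos.le)]
          · exact (norm_sum_le _ _).trans (Finset.sum_le_sum fun i _ => hbd i)
      _ = 1 := by
          rw [Finset.sum_const, Finset.card_univ, Fintype.card_fin, nsmul_eq_mul, hK]
          field_simp; ring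
  refine ⟨R⁻¹, inv_pos.2 hRpos, fun z hz hzr => ?_⟩
  have h1 := hle ⟨z, hz⟩ hzr
  have h2 := hle (-⟨z, hz⟩) (by rw [norm_neg]; exact hzr)
  simp only [Submodule.coe_neg] at h1 h2
  have h3 : ‖(a + z) + (a + -z)‖ ≤ ‖a + z‖ + ‖a + -z‖ := norm_add_le _ _
  have h4 : (a + z) + (a + -z) = (2 : ℝ) • a := by
    rw [two_smul]; abel
  rw [h4, norm_smul, ha] at h3
  norm_num at h3
  linarith

/-- VF5.  A point near `x` with `faceDir` of maximal dimension.  Sketch: the set of the numbers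
`Module.finrank ℝ (faceDir a)`, `‖a‖ = 1`, `‖a - x‖ < ε`, is nonempty (`a = x`) and bounded by
`Module.finrank ℝ E` (`Submodule.finrank_le`); take its maximum (`Nat.findGreatest` or
`Set.Finite.exists_maximal` or strong induction). -/
lemma exists_max_faceDir [FiniteDimensional ℝ E] {x : E} (hx : ‖x‖ = 1) {ε : ℝ} (hε : 0 < ε) :
    ∃ a : E, ‖a‖ = 1 ∧ ‖a - x‖ < ε ∧ ∀ a' : E, ‖a'‖ = 1 → ‖a' - x‖ < ε →
      Module.finrank ℝ (faceDir a') ≤ Module.finrank ℝ (faceDir a) := by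
  classical
  let P : ℕ → Prop := fun d => ∃ a : E, ‖a‖ = 1 ∧ ‖a - x‖ < ε ∧ Module.finrank ℝ (faceDir a) = d
  have hP : P (Module.finrank ℝ (faceDir x)) := ⟨x, hx, by simpa using hε, rfl⟩
  have hle : Module.finrank ℝ (faceDir x) ≤ Module.finrank ℝ E := Submodule.finrank_le _
  obtain ⟨a, ha, hax, had⟩ := Nat.findGreatest_spec (P := P) hle hP
  refine ⟨a, ha, hax, fun a' ha' hax' => ?_⟩
  rw [had]
  exact Nat.le_findGreatest (P := P) (Submodule.finrank_le _) ⟨a', ha', hax', rfl⟩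

/-- VF6.  Sketch: otherwise, for `l > 0` small (`l * 2 < ε - ‖a - x‖`, `l < 1`) the point
`al = (1 - l) • a + l • e` is a unit vector with `‖al - x‖ ≤ ‖a - x‖ + l ‖e - a‖ < ε`, and
`faceDir a < faceDir al` (`faceDir_mono`, `sub_mem_faceDir`), so
`finrank (faceDir a) < finrank (faceDir al)` (`Submodule.finrank_lt_finrank_of_lt`), against `hmax`. -/
lemma sub_mem_of_max [FiniteDimensional ℝ E] {x a : E} {ε : ℝ} (ha : ‖a‖ = 1) (hax : ‖a - x‖ < ε)
    (hmax : ∀ a' : E, ‖a'‖ = 1 → ‖a' - x‖ < ε →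
      Module.finrank ℝ (faceDir a') ≤ Module.finrank ℝ (faceDir a))
    {e : E} (he : ‖e‖ = 1) (h : ‖a + e‖ = 2) : e - a ∈ faceDir a := by
  by_contra hcon
  have hgap : 0 < ε - ‖a - x‖ := by linarith
  set l : ℝ := min (1 / 2) ((ε - ‖a - x‖) / 4) with hl
  have hl0 : 0 < l := lt_min (by norm_num) (by positivity)
  have hl1 : l < 1 := lt_of_le_of_lt (min_le_left _ _) (by norm_num)
  have hl2 : l ≤ (ε - ‖a - x‖) / 4 := min_le_right _ _
  have hn : ‖(1 - l) • a + l • e‖ = 1 := by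
    rw [norm_comb_of_add ha he h (by linarith) hl0.le]
    ring
  have hea : ‖e - a‖ ≤ 2 := by
    calc ‖e - a‖ ≤ ‖e‖ + ‖a‖ := norm_sub_le _ _
      _ = 2 := by rw [ha, he]; norm_num
  have hd : ‖(1 - l) • a + l • e - x‖ < ε := by
    have e1 : (1 - l) • a + l • e - x = (a - x) + l • (e - a) := by
      rw [smul_sub, sub_smul, one_smul]
      abel
    rw [e1]
    calc ‖(a - x) + l • (e - a)‖ ≤ ‖a - x‖ + ‖l • (e - a)‖ := norm_add_le _ _
      _ = ‖a - x‖ + l * ‖e - a‖ := by rw [norm_smul, Real.norm_of_nonneg hl0.le]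
      _ < ε := by nlinarith
  have hlt : faceDir a < faceDir ((1 - l) • a + l • e) := by
    refine lt_of_le_of_ne (faceDir_mono ha he h hl0 hl1) ?_
    intro heq
    apply hcon
    rw [heq]
    exact sub_mem_faceDir ha he h hl0 hl1
  have := Submodule.finrank_lt_finrank_of_lt hlt
  have := hmax _ hn hd
  omega

/-- VF7.  Sketch: `r` from `faceDir_radius`; `z = (r / ‖e - a‖) • (e - a) ∈ faceDir a` has norm `r`; apply the
radius property to `z` and to `-z`. -/
lemma inner_of_star [FiniteDimensional ℝ E] {a : E} (ha : ‖a‖ = 1)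
    (h : ∀ e : E, ‖e‖ = 1 → ‖a + e‖ = 2 → e - a ∈ faceDir a) : InnerPt a := by
  obtain ⟨r, hr, hrad⟩ := faceDir_radius ha
  refine ⟨r, hr, fun e he hae hne => ?_⟩
  have hpos : 0 < ‖e - a‖ := norm_pos_iff.2 (sub_ne_zero.2 hne)
  have hz : (r / ‖e - a‖) • (e - a) ∈ faceDir a := (faceDir a).smul_mem _ (h e he hae)
  have hnz : ‖(r / ‖e - a‖) • (e - a)‖ = r := by
    rw [norm_smul, Real.norm_of_nonneg (by positivity), div_mul_cancel₀ _ hpos.ne']
  refine ⟨hrad _ hz hnz.le, ?_⟩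
  have := hrad _ ((faceDir a).neg_mem hz) (by rw [norm_neg]; exact hnz.le)
  rwa [← sub_eq_add_neg] at this

theorem innerDense_of_finiteDimensional [FiniteDimensional ℝ E] : InnerDense E := by
  intro x hx ε hε
  obtain ⟨a, ha, hax, hmax⟩ := exists_max_faceDir hx hε
  exact ⟨a, ha, hax, inner_of_star ha (fun e he h => sub_mem_of_max ha hax hmax he h)⟩

/-- VF8.  Rotund points are inner points (vacuously, `r = 1`). -/
lemma RotundPt.inner {a : E} (h : RotundPt a) : InnerPt a :=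
  ⟨1, one_pos, fun e he hae hne => absurd (h e he hae) hne⟩

/-- VF9.  Flat points are inner points.  Sketch: `Flat φ a ρ` (see Poly/Patch.lean or where `Flat` is
defined) says that the norm equals `φ` on the ball of radius `ρ` about `a`.  Take `r = ρ / 2`.  If `‖e‖ = 1`,
`‖a + e‖ = 2`, then `φ e = 1`: for small `t > 0`, `(1 - t) • a + t • e` has norm one
(`norm_comb_of_add`) and lies in the ball, so `(1 - t) φ a + t φ e = 1` with `φ a = ‖a‖ = 1`.  So
`φ (e - a) = 0` and `‖a ± z‖ = φ (a ± z) = 1` for `z = (r / ‖e - a‖) • (e - a)`, `‖z‖ = r < ρ`. -/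
lemma FlatPt.inner {a : E} (ha : ‖a‖ = 1) (h : FlatPt a) : InnerPt a := by
  obtain ⟨φ, ρ, hρ, hflat⟩ := h
  have hφa : φ a = 1 := by
    have := hflat 0 (by simpa using hρ)
    rw [add_zero, ha] at this
    exact this.symm
  refine ⟨ρ / 2, by positivity, fun e he hae hne => ?_⟩
  have hpos : 0 < ‖e - a‖ := norm_pos_iff.2 (sub_ne_zero.2 hne)
  have hφe : φ (e - a) = 0 := by
    set t : ℝ := min (1 / 2) (ρ / (2 * ‖e - a‖)) with ht
    have ht0 : 0 < t := lt_min (by norm_num) (by positivity)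
    have ht1 : t < 1 := lt_of_le_of_lt (min_le_left _ _) (by norm_num)
    have ht2 : t ≤ ρ / (2 * ‖e - a‖) := min_le_right _ _
    have hsmall : ‖t • (e - a)‖ < ρ := by
      rw [norm_smul, Real.norm_of_nonneg ht0.le]
      calc t * ‖e - a‖ ≤ ρ / (2 * ‖e - a‖) * ‖e - a‖ := mul_le_mul_of_nonneg_right ht2 hpos.le
        _ = ρ / 2 := by field_simp
        _ < ρ := by linarith
    have h1 := hflat _ hsmall
    have e1 : a + t • (e - a) = (1 - t) • a + t • e := by
      rw [smul_sub, sub_smul, one_smul]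
      abel
    have h2 : ‖a + t • (e - a)‖ = 1 := by
      rw [e1, norm_comb_of_add ha he hae (by linarith) ht0.le]
      ring
    rw [h2, map_add, map_smul, hφa, smul_eq_mul] at h1
    have : t * φ (e - a) = 0 := by linarith
    rcases mul_eq_zero.1 this with h3 | h3
    · exact absurd h3 ht0.ne'
    · exact h3
  have hnz : ‖(ρ / 2 / ‖e - a‖) • (e - a)‖ < ρ := by
    rw [norm_smul, Real.norm_of_nonneg (by positivity), div_mul_cancel₀ _ hpos.ne']
    linarith
  constructor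
  · rw [hflat _ hnz, map_add, map_smul, hφe, hφa]
    simp
  · have := hflat (-((ρ / 2 / ‖e - a‖) • (e - a))) (by rw [norm_neg]; exact hnz)
    rw [← sub_eq_add_neg] at this
    rw [this, map_sub, map_smul, hφe, hφa]
    simp

end Vale.Agent.P084
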