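import Vale.Agent.P084.V.Defs

/-! Leaf affinity over inner points. -/

namespace Vale.Agent.P084

open Metric Set

set_option linter.unusedSectionVars false

universe u v w

variable {E : Type u} {F : Type v} {W : Type w}
  [NormedAddCommGroup E] [NormedSpace ℝ E] [NormedAddCommGroup F] [NormedSpace ℝ F]
  [NormedAddCommGroup W] [NormedSpace ℝ W]

variable {f : E × F → W} (hf : SphIso f)
include hf

/-- VL1.  Copy of `leaf_mid_local_g` and `leaf_mid_global_g` (U/Leaf.lean) with a scale `ρ`: use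
`r0 = min (η / 9) (ρ / 3)` instead of `η / 9` in the local lemma (hypothesis `‖ua - ub‖ ≤ r0`; `hmid` is
applied with `η`, `ua`, `ub`; `hext` with `η / 2`, `2 * r0`), and `ε = min (δ / 9) (ρ / 3)` in
`doubling`. -/
lemma leaf_mid_scale {e0 : E} (he0 : ‖e0‖ = 1) {ρ : ℝ} (hρ : 0 < ρ)
    (hmid : ∀ (η : ℝ) (u1 u2 : F), ‖u1‖ ≤ 1 - η → ‖u2‖ ≤ 1 - η → ‖u1 - u2‖ < η → ‖u1 - u2‖ < ρ →
      ∃ v, ‖v‖ ≤ 1 ∧ f (e0, v) = (1 / 2 : ℝ) • (f (e0, u1) + f (e0, u2)))
    (hext : ∀ (η r : ℝ) (u1 u2 : F), 2 * r < η → r < ρ → ‖u1‖ ≤ 1 - η → ‖u2‖ ≤ 1 - η →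
      ‖u1 - u2‖ ≤ r → ∃ v, ‖v‖ ≤ 1 ∧ f (e0, v) = (2 : ℝ) • f (e0, u1) - f (e0, u2)) :
    LeafMid f e0 := by
  have hloc : ∀ {η : ℝ} (_ : 0 < η) {ua ub : F} (_ : ‖ua‖ ≤ 1 - η) (_ : ‖ub‖ ≤ 1 - η)
      (_ : ‖ua - ub‖ ≤ min (η / 9) (ρ / 3)),
      f (e0, (1 / 2 : ℝ) • (ua + ub)) = (1 / 2 : ℝ) • (f (e0, ua) + f (e0, ub)) := by
    intro η hη ua ub ha hb hab
    set r0 : ℝ := min (η / 9) (ρ / 3) with hr0
    have hr0pos : 0 < r0 := lt_min (by positivity) (by positivity)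
    have hr1 : 9 * r0 ≤ η := by
      have := min_le_left (η / 9) (ρ / 3)
      rw [← hr0] at this; linarith
    have hr2 : 3 * r0 ≤ ρ := by
      have := min_le_right (η / 9) (ρ / 3)
      rw [← hr0] at this; linarith
    set S : Set F := {u | ‖u - ua‖ ≤ r0 ∧ ‖u - ub‖ ≤ r0} with hS
    have hSn : ∀ u ∈ S, ‖u‖ ≤ 1 - η / 2 := by
      intro u hu
      have := norm_add_le (u - ua) ua
      rw [sub_add_cancel] at this
      linarith [hu.1]
    have hiso1 : ∀ x y : F, ‖x‖ ≤ 1 → ‖y‖ ≤ 1 → ‖f (e0, x) - f (e0, y)‖ = ‖x - y‖ := by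
      intro x y hx hy
      rw [hf.iso _ _ (norm_face he0 hx) (norm_face he0 hy), pnrm_sub, sub_self, norm_zero]
      exact max_eq_right (norm_nonneg _)
    apply local_mid_abs (fun u => f (e0, u)) S
    · exact ⟨by rw [sub_self, norm_zero]; exact hr0pos.le, hab⟩
    · exact ⟨by rw [norm_sub_rev]; exact hab, by rw [sub_self, norm_zero]; exact hr0pos.le⟩
    · constructor
      · have : (1 / 2 : ℝ) • (ua + ub) - ua = (-(1 / 2) : ℝ) • (ua - ub) := by module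
        rw [this, norm_smul, Real.norm_eq_abs, abs_neg, abs_of_nonneg (by norm_num)]
        linarith [norm_nonneg (ua - ub)]
      · have : (1 / 2 : ℝ) • (ua + ub) - ub = (1 / 2 : ℝ) • (ua - ub) := by module
        rw [this, norm_smul, Real.norm_eq_abs, abs_of_nonneg (by norm_num)]
        linarith [norm_nonneg (ua - ub)]
    · intro x hx y hy
      exact hiso1 x y (by linarith [hSn x hx]) (by linarith [hSn y hy])
    · intro x hx
      constructor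
      · have : ua + ub - x - ua = -(x - ub) := by abel
        rw [this, norm_neg]; exact hx.2
      · have : ua + ub - x - ub = -(x - ua) := by abel
        rw [this, norm_neg]; exact hx.1
    · intro x hx
      obtain ⟨vm, hvm, hfvm⟩ := hmid η ua ub ha hb (by linarith) (by linarith)
      have hvma : ‖vm - ua‖ ≤ r0 / 2 := by
        rw [← hiso1 vm ua hvm (by linarith), hfvm]
        have : (1 / 2 : ℝ) • (f (e0, ua) + f (e0, ub)) - f (e0, ua)
            = (-(1 / 2) : ℝ) • (f (e0, ua) - f (e0, ub)) := by module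
        rw [this, norm_smul, hiso1 ua ub (by linarith) (by linarith), Real.norm_eq_abs, abs_neg,
          abs_of_nonneg (by norm_num)]
        linarith
      have hvmn : ‖vm‖ ≤ 1 - η / 2 := by
        have := norm_add_le (vm - ua) ua
        rw [sub_add_cancel] at this
        linarith
      have hvmx : ‖vm - x‖ ≤ 2 * r0 := by
        have e1 : vm - x = (vm - ua) - (x - ua) := by abel
        have := norm_sub_le (vm - ua) (x - ua)
        rw [← e1] at this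
        linarith [hx.1]
      obtain ⟨v, hv, hfv⟩ := hext (η / 2) (2 * r0) vm x (by linarith) (by linarith)
        hvmn (hSn x hx) hvmx
      have hfv' : f (e0, v) = f (e0, ua) + f (e0, ub) - f (e0, x) := by
        rw [hfv, hfvm]; module
      have hx1 : ‖x‖ ≤ 1 := by linarith [hSn x hx]
      refine ⟨v, ⟨?_, ?_⟩, hfv'⟩
      · rw [← hiso1 v ua hv (by linarith), hfv']
        have : f (e0, ua) + f (e0, ub) - f (e0, x) - f (e0, ua) = f (e0, ub) - f (e0, x) := by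
          abel
        rw [this, hiso1 ub x (by linarith) hx1, norm_sub_rev]; exact hx.2
      · rw [← hiso1 v ub hv (by linarith), hfv']
        have : f (e0, ua) + f (e0, ub) - f (e0, x) - f (e0, ub) = f (e0, ua) - f (e0, x) := by
          abel
        rw [this, hiso1 ua x (by linarith) hx1, norm_sub_rev]; exact hx.1
  intro ua ub ha hb
  set δ : ℝ := 1 - max ‖ua‖ ‖ub‖ with hδ
  have hδ0 : 0 < δ := by
    have := max_lt ha hb
    linarith
  have h := doubling (closedBall (0 : F) (1 - δ)) (convex_closedBall _ _)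
    (fun u => f (e0, u)) (ε := min (δ / 9) (ρ / 3)) (lt_min (by positivity) (by positivity))
    (fun x hx y hy hxy => hloc hδ0 (mem_closedBall_zero_iff.mp hx)
      (mem_closedBall_zero_iff.mp hy) hxy)
  apply h
  · rw [mem_closedBall_zero_iff, hδ]
    have := le_max_left ‖ua‖ ‖ub‖
    linarith
  · rw [mem_closedBall_zero_iff, hδ]
    have := le_max_right ‖ua‖ ‖ub‖
    linarith

/-- VL2.  Midpoint closure of the leaf over an inner point.  Notation `k1 = f (a, u1)`,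
`k2 = f (a, u2)`, `y = (1/2) (k1 + k2)`.  `0 < η` (from `h12`).  `‖k1 + k2‖ = 2` (`flat_leaf_g`), so `‖y‖ = 1`; let
`y = f (e, v)`, `‖(e, v)‖ = 1` (`hf.surj`).  `‖(e, v) - (a, u1)‖ = ‖y - k1‖ = ‖u1 - u2‖ / 2` (`hf.iso`,
`pnrm_sub`), so `‖v‖ ≤ 1 - η + η / 2 < 1`, so `‖e‖ = 1` (`pnrm`).  `‖y + k1‖ = ‖(3/2) k1 + (1/2) k2‖ = 2`
(`norm_comb_of_add`), so `‖(e, v) + (a, u1)‖ = 2` (`mf_F1_inv`), so `‖a + e‖ = 2` (the second
component has norm `< 2`).  If `e = a` we are done.  Otherwise `b = a - (r / ‖e - a‖) • (e - a)` is a unit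
vector (`hin`), `‖a - b‖ = r`, `‖e - b‖ = ‖e - a‖ + r`.  With `q = (b, u1)`:
`‖y - f q‖ ≤ (‖k1 - f q‖ + ‖k2 - f q‖) / 2 = (r + max r ‖u2 - u1‖) / 2 = r`, but
`‖y - f q‖ = ‖(e, v) - q‖ ≥ ‖e - b‖ > r`. -/
lemma inner_mid {a : E} (ha : ‖a‖ = 1) {r : ℝ} (hr : 0 < r) (hin : InnerRad a r)
    {η : ℝ} {u1 u2 : F} (h1 : ‖u1‖ ≤ 1 - η) (h2 : ‖u2‖ ≤ 1 - η) (h12 : ‖u1 - u2‖ < η)
    (h12r : ‖u1 - u2‖ < r) :
    ∃ v, ‖v‖ ≤ 1 ∧ f (a, v) = (1 / 2 : ℝ) • (f (a, u1) + f (a, u2)) := by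
  have hη : 0 < η := lt_of_le_of_lt (norm_nonneg _) h12
  have hu1 : ‖u1‖ < 1 := by linarith
  have hu2 : ‖u2‖ < 1 := by linarith
  have n1 := norm_face (F := F) ha hu1.le
  have n2 := norm_face (F := F) ha hu2.le
  obtain ⟨k1, hk1⟩ : ∃ k1, k1 = f (a, u1) := ⟨_, rfl⟩
  obtain ⟨k2, hk2⟩ : ∃ k2, k2 = f (a, u2) := ⟨_, rfl⟩
  rw [← hk1, ← hk2]
  have hk1n : ‖k1‖ = 1 := by rw [hk1]; exact hf.norm _ n1
  have hk2n : ‖k2‖ = 1 := by rw [hk2]; exact hf.norm _ n2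
  have hfl : ‖k1 + k2‖ = 2 := by rw [hk1, hk2]; exact flat_leaf_g hf ha hu1.le hu2
  have hyn : ‖(1 / 2 : ℝ) • (k1 + k2)‖ = 1 := by rw [norm_smul, hfl]; norm_num
  obtain ⟨⟨e, v⟩, hev, hfev⟩ := hf.surj _ hyn
  have hk12 : ‖k1 - k2‖ = ‖u1 - u2‖ := by
    rw [hk1, hk2, hf.iso _ _ n1 n2, pnrm_sub, sub_self, norm_zero]
    exact max_eq_right (norm_nonneg _)
  have hd1 : ‖((e, v) : E × F) - (a, u1)‖ = ‖u1 - u2‖ / 2 := by
    rw [← hf.iso _ _ hev n1, hfev, ← hk1]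
    have e1 : (1 / 2 : ℝ) • (k1 + k2) - k1 = (-(1 / 2) : ℝ) • (k1 - k2) := by module
    rw [e1, norm_smul, hk12]
    norm_num
    ring
  rw [pnrm_sub] at hd1
  have hv1 : ‖v - u1‖ ≤ ‖u1 - u2‖ / 2 := hd1 ▸ le_max_right _ _
  have hvn : ‖v‖ < 1 := by
    have h3 : ‖v‖ ≤ ‖v - u1‖ + ‖u1‖ := by
      have := norm_add_le (v - u1) u1
      simpa using this
    linarith
  have hen : ‖e‖ = 1 := by
    have hev' := hev
    rw [pnrm] at hev'
    rcases max_choice ‖e‖ ‖v‖ with h | h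
    · rw [h] at hev'; exact hev'
    · rw [h] at hev'; linarith
  have hyk : ‖(1 / 2 : ℝ) • (k1 + k2) + k1‖ = 2 := by
    have e1 : (1 / 2 : ℝ) • (k1 + k2) + k1 = (3 / 2 : ℝ) • k1 + (1 / 2 : ℝ) • k2 := by module
    rw [e1, norm_comb_of_add hk1n hk2n hfl (by norm_num) (by norm_num)]
    norm_num
  have hsum : ‖((e, v) : E × F) + (a, u1)‖ = 2 := by
    apply mf_F1_inv hf hev n1
    rw [hfev, ← hk1]
    exact hyk
  have hae : ‖a + e‖ = 2 := by
    rw [Prod.mk_add_mk, pnrm] at hsum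
    have hlt : ‖v + u1‖ < 2 := by
      have := norm_add_le v u1
      linarith
    rcases max_choice ‖e + a‖ ‖v + u1‖ with h | h
    · rw [h] at hsum; rw [add_comm]; exact hsum
    · rw [h] at hsum; linarith
  by_cases hea : e = a
  · subst hea
    exact ⟨v, hvn.le, hfev⟩
  exfalso
  obtain ⟨-, hb⟩ := hin e hen hae hea
  obtain ⟨d, hd⟩ : ∃ d, d = ‖e - a‖ := ⟨_, rfl⟩
  rw [← hd] at hb
  have hdpos : 0 < d := by rw [hd]; exact norm_pos_iff.mpr (sub_ne_zero.mpr hea)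
  obtain ⟨b, hbdef⟩ : ∃ b, b = a - (r / d) • (e - a) := ⟨_, rfl⟩
  rw [← hbdef] at hb
  have hab : ‖a - b‖ = r := by
    have e1 : a - b = (r / d) • (e - a) := by rw [hbdef]; abel
    rw [e1, norm_smul, Real.norm_eq_abs, abs_of_pos (div_pos hr hdpos), ← hd]
    field_simp
  have heb : ‖e - b‖ = d + r := by
    have e1 : e - b = (1 + r / d) • (e - a) := by rw [hbdef]; module
    rw [e1, norm_smul, Real.norm_eq_abs, abs_of_pos (by positivity), ← hd]
    field_simp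
  have nq := norm_face (F := F) hb hu1.le
  have hq1 : ‖k1 - f (b, u1)‖ = r := by
    rw [hk1, hf.iso _ _ n1 nq, pnrm_sub, sub_self, norm_zero, hab]
    exact max_eq_left hr.le
  have hq2 : ‖k2 - f (b, u1)‖ = r := by
    rw [hk2, hf.iso _ _ n2 nq, pnrm_sub, hab, norm_sub_rev]
    exact max_eq_left h12r.le
  have hle : ‖(1 / 2 : ℝ) • (k1 + k2) - f (b, u1)‖ ≤ r := by
    have e1 : (1 / 2 : ℝ) • (k1 + k2) - f (b, u1)
        = (1 / 2 : ℝ) • (k1 - f (b, u1)) + (1 / 2 : ℝ) • (k2 - f (b, u1)) := by module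
    rw [e1]
    refine (norm_add_le _ _).trans ?_
    rw [norm_smul, norm_smul, hq1, hq2]
    norm_num
    linarith
  rw [← hfev, hf.iso _ _ hev nq, pnrm_sub] at hle
  have := le_max_left ‖e - b‖ ‖v - u1‖
  linarith

/-- VL3.  Reflection closure of the leaf over an inner point.  Copy the proof of `crux_r`
(U/Rot.lean) up to `hfl3 : ‖wh + k1‖ = 2` (it does not use rotundity; `wh = f (e', u')`, `‖e'‖ = 1`,
`‖u'‖ < 1`, `w = 2 k1 - k2 = ‖w‖ • wh`).  Then `‖(e', u') + (a, u1)‖ = 2` (`mf_F1_inv`), so `‖a + e'‖ = 2`;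
so `‖(e', u') + (a, u2)‖ = 2`, so `‖wh + k2‖ = 2` (`mf_F1`), and as at the end of `crux_r`
(`norm_add_smul_of_flat`) `‖w‖ = 1`, `w = f (e', u')`.  If `e' = a` we are done.  Otherwise
`b = a + (r / ‖e' - a‖) • (e' - a)` is a unit vector, `‖a - b‖ = r`; `‖e' - a‖ ≤ ‖w - k1‖ = ‖k1 - k2‖ ≤ ρ < r`,
so `‖e' - b‖ = r - ‖e' - a‖ < r`; `‖u' - u1‖ ≤ ρ < r`.  With `q = (b, u1)`:
`‖w - f q‖ = ‖2 (k1 - f q) - (k2 - f q)‖ ≥ 2 r - max r ‖u2 - u1‖ = r`, but
`‖w - f q‖ = max ‖e' - b‖ ‖u' - u1‖ < r`. -/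
lemma inner_ext {a : E} (ha : ‖a‖ = 1) {r : ℝ} (hr : 0 < r) (hin : InnerRad a r)
    {η ρ : ℝ} (h2r : 2 * ρ < η) (hρr : ρ < r)
    {u1 u2 : F} (h1 : ‖u1‖ ≤ 1 - η) (h2 : ‖u2‖ ≤ 1 - η) (h12 : ‖u1 - u2‖ ≤ ρ) :
    ∃ v, ‖v‖ ≤ 1 ∧ f (a, v) = (2 : ℝ) • f (a, u1) - f (a, u2) := by
  have hr0 : 0 ≤ ρ := le_trans (norm_nonneg _) h12
  have hη0 : 0 < η := by linarith
  have hη1 : η ≤ 1 := by linarith [norm_nonneg u1]
  have n1 : ‖((a, u1) : E × F)‖ = 1 := norm_face ha (by linarith)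
  have n2 : ‖((a, u2) : E × F)‖ = 1 := norm_face ha (by linarith)
  set k1 := f (a, u1) with hk1
  set k2 := f (a, u2) with hk2
  have nk1 : ‖k1‖ = 1 := hf.norm _ n1
  have nk2 : ‖k2‖ = 1 := hf.norm _ n2
  set w : W := (2 : ℝ) • k1 - k2 with hw
  have hk12 : ‖k1 - k2‖ ≤ ρ := by
    rw [hk1, hk2, hf.iso _ _ n1 n2, pnrm_sub, sub_self, norm_zero]
    exact max_le hr0 h12
  have hwk : ‖w - k1‖ ≤ ρ := by
    have : w - k1 = k1 - k2 := by rw [hw]; module
    rw [this]; exact hk12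
  have hwk2 : w + k2 = (2 : ℝ) • k1 := by rw [hw]; abel
  have hwk2n : ‖w + k2‖ = 2 := by rw [hwk2, norm_smul, nk1]; norm_num
  have hw1 : 1 ≤ ‖w‖ := by
    have := norm_add_le w k2
    rw [hwk2n, nk2] at this; linarith
  have hw2 : ‖w‖ ≤ 1 + ρ := by
    have := norm_add_le k1 (w - k1)
    rw [add_sub_cancel] at this
    linarith
  have hwpos : 0 < ‖w‖ := by linarith
  set wh : W := ‖w‖⁻¹ • w with hwh
  have hwhn : ‖wh‖ = 1 := by
    rw [hwh, norm_smul, norm_inv, norm_norm, inv_mul_cancel₀ hwpos.ne']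
  have hww : w = ‖w‖ • wh := by
    rw [hwh, smul_smul, mul_inv_cancel₀ hwpos.ne', one_smul]
  have hdiff : ‖w - wh‖ = ‖w‖ - 1 := by
    have : w - wh = (‖w‖ - 1) • wh := by
      rw [sub_smul, one_smul, ← hww]
    rw [this, norm_smul, hwhn, mul_one, Real.norm_of_nonneg (by linarith)]
  obtain ⟨⟨e', u'⟩, hp, hfp⟩ := hf.surj wh hwhn
  have hpa : ‖((e', u') : E × F) - (a, u1)‖ ≤ 2 * ρ := by
    rw [← hf.iso _ _ hp n1, hfp]
    have e1 : wh - k1 = (w - k1) - (w - wh) := by abel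
    rw [← hk1, e1]
    have := norm_sub_le (w - k1) (w - wh)
    linarith
  rw [pnrm_sub] at hpa
  have hd2 : ‖u' - u1‖ ≤ 2 * ρ := le_trans (le_max_right _ _) hpa
  have hu' : ‖u'‖ < 1 := by
    have := norm_add_le (u' - u1) u1
    rw [sub_add_cancel] at this
    linarith
  have he' : ‖e'‖ = 1 := by
    rw [pnrm] at hp
    rcases max_choice ‖e'‖ ‖u'‖ with h | h
    · rw [h] at hp; exact hp
    · rw [h] at hp; linarith
  have hfl3 : ‖wh + k1‖ = 2 := by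
    rw [← hfp]
    exact crux_fact hf ha (by linarith : ‖u1‖ < 1) (by linarith : ‖u2‖ < 1) he' hu' hw1
      (by rw [hfp, ← hww])
  -- new ending
  have hs1 : ‖((e', u') : E × F) + (a, u1)‖ = 2 :=
    mf_F1_inv hf hp n1 (by rw [hfp]; exact hfl3)
  have hsum : ‖e' + a‖ = 2 := by
    rw [Prod.mk_add_mk, pnrm] at hs1
    have hlt : ‖u' + u1‖ < 2 := by
      have := norm_add_le u' u1
      linarith
    rcases max_choice ‖e' + a‖ ‖u' + u1‖ with h | h
    · rw [h] at hs1; exact hs1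
    · rw [h] at hs1; linarith
  have hs2 : ‖((e', u') : E × F) + (a, u2)‖ = 2 := by
    rw [Prod.mk_add_mk, pnrm, hsum]
    apply max_eq_left
    have := norm_add_le u' u2
    linarith
  have h5 : ‖k2 + wh‖ = 2 := by
    have := mf_F1 hf hp n2 hs2
    rw [hfp, ← hk2, add_comm] at this
    exact this
  have h6 := norm_add_smul_of_flat nk2 hwhn h5 hwpos.le
  rw [← hww, add_comm, hwk2n] at h6
  have hw1' : ‖w‖ = 1 := by linarith
  have hwwh : wh = w := by rw [hwh, hw1', inv_one, one_smul]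
  rw [hwwh] at hfp
  by_cases hee : e' = a
  · exact ⟨u', hu'.le, by rw [← hee, hfp]⟩
  exfalso
  have hdpos : 0 < ‖e' - a‖ := norm_pos_iff.2 (sub_ne_zero.2 hee)
  have hpa' : ‖((e', u') : E × F) - (a, u1)‖ ≤ ρ := by
    rw [← hf.iso _ _ hp n1, hfp, ← hk1]
    exact hwk
  rw [pnrm_sub] at hpa'
  have hd1 : ‖e' - a‖ ≤ ρ := le_trans (le_max_left _ _) hpa'
  have hd2' : ‖u' - u1‖ ≤ ρ := le_trans (le_max_right _ _) hpa'
  obtain ⟨hb, -⟩ := hin e' he' (by rw [add_comm]; exact hsum) hee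
  set b : E := a + (r / ‖e' - a‖) • (e' - a) with hbdef
  have hab : ‖a - b‖ = r := by
    have : a - b = -((r / ‖e' - a‖) • (e' - a)) := by rw [hbdef]; abel
    rw [this, norm_neg, norm_smul, Real.norm_of_nonneg (by positivity),
      div_mul_cancel₀ _ hdpos.ne']
  have heb : ‖e' - b‖ = r - ‖e' - a‖ := by
    have : e' - b = -((r / ‖e' - a‖ - 1) • (e' - a)) := by rw [hbdef]; module
    have hge : 0 ≤ r / ‖e' - a‖ - 1 := by
      rw [sub_nonneg, le_div_iff₀ hdpos]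
      linarith
    rw [this, norm_neg, norm_smul, Real.norm_of_nonneg hge, sub_mul, one_mul,
      div_mul_cancel₀ _ hdpos.ne']
  have nq : ‖((b, u1) : E × F)‖ = 1 := norm_face hb (by linarith)
  have c1 : ‖w - f (b, u1)‖ < r := by
    rw [← hfp, hf.iso _ _ hp nq, pnrm_sub, heb]
    exact max_lt (by linarith) (by linarith)
  have c2 : ‖k1 - f (b, u1)‖ = r := by
    rw [hk1, hf.iso _ _ n1 nq, pnrm_sub, sub_self, norm_zero, hab]
    exact max_eq_left hr.le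
  have c3 : ‖k2 - f (b, u1)‖ = r := by
    rw [hk2, hf.iso _ _ n2 nq, pnrm_sub, hab]
    apply max_eq_left
    rw [norm_sub_rev]
    linarith
  have c4 : (2 : ℝ) • (k1 - f (b, u1)) = (w - f (b, u1)) + (k2 - f (b, u1)) := by
    rw [hw]; module
  have c5 := norm_add_le (w - f (b, u1)) (k2 - f (b, u1))
  rw [← c4, norm_smul, c2, c3] at c5
  norm_num at c5
  linarith

lemma inner_leafMid {a : E} (ha : ‖a‖ = 1) (h : InnerPt a) : LeafMid f a := by
  obtain ⟨r, hr, hin⟩ := h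
  exact leaf_mid_scale hf ha hr
    (fun η u1 u2 h1 h2 h12 h12r => inner_mid hf ha hr hin h1 h2 h12 h12r)
    (fun η ρ u1 u2 h2r hρr h1 h2 h12 => inner_ext hf ha hr hin h2r hρr h1 h2 h12)

/-- VL5.  `LeafMid` passes to limits.  Sketch: `eq_of_forall_norm_le`; for `ε` take `a'` with
`‖a' - a‖ < ε / 2`; `‖f (a, w) - f (a', w)‖ = ‖a - a'‖` for `‖w‖ ≤ 1` (`hf.iso`, `norm_face`, `pnrm_sub`); the
difference of the two sides for `a` and for `a'` has norm at most `2 ‖a - a'‖`. -/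
lemma leafMid_of_dense {a : E} (ha : ‖a‖ = 1)
    (h : ∀ ε : ℝ, 0 < ε → ∃ a' : E, ‖a'‖ = 1 ∧ ‖a' - a‖ < ε ∧ LeafMid f a') : LeafMid f a := by
  intro u u' hu hu'
  apply eq_of_forall_norm_le
  intro ε hε _
  obtain ⟨a', ha', hd, hm⟩ := h (ε / 2) (by linarith)
  have key : ∀ w : F, ‖w‖ ≤ 1 → ‖f (a, w) - f (a', w)‖ = ‖a' - a‖ := by
    intro w hw
    rw [hf.iso _ _ (norm_face ha hw) (norm_face ha' hw), pnrm_sub, sub_self, norm_zero,
      max_eq_left (norm_nonneg _), norm_sub_rev]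
  have hmid : ‖(1 / 2 : ℝ) • (u + u')‖ ≤ 1 := by
    rw [norm_smul]
    have := norm_add_le u u'
    norm_num
    linarith
  have e := hm u u' hu hu'
  have k0 := key _ hmid
  have k1 := key u hu.le
  have k2 := key u' hu'.le
  have split : f (a, (1 / 2 : ℝ) • (u + u')) - (1 / 2 : ℝ) • (f (a, u) + f (a, u')) =
      (f (a, (1 / 2 : ℝ) • (u + u')) - f (a', (1 / 2 : ℝ) • (u + u'))) -
        ((1 / 2 : ℝ) • (f (a, u) - f (a', u)) + (1 / 2 : ℝ) • (f (a, u') - f (a', u'))) := by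
    rw [e]
    simp only [smul_add, smul_sub]
    abel
  rw [split]
  have n1 : ‖(1 / 2 : ℝ) • (f (a, u) - f (a', u))‖ = (1 / 2) * ‖a' - a‖ := by
    rw [norm_smul, k1]; norm_num
  have n2 : ‖(1 / 2 : ℝ) • (f (a, u') - f (a', u'))‖ = (1 / 2) * ‖a' - a‖ := by
    rw [norm_smul, k2]; norm_num
  have t1 := norm_sub_le (f (a, (1 / 2 : ℝ) • (u + u')) - f (a', (1 / 2 : ℝ) • (u + u')))
    ((1 / 2 : ℝ) • (f (a, u) - f (a', u)) + (1 / 2 : ℝ) • (f (a, u') - f (a', u')))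
  have t2 := norm_add_le ((1 / 2 : ℝ) • (f (a, u) - f (a', u)))
    ((1 / 2 : ℝ) • (f (a, u') - f (a', u')))
  linarith

/-- VL6.  `slice_affine` (Sc1.lean) as at the end of `leaf_map_of` (U/Leaf.lean). -/
lemma leafAff_of_mid {a : E} (ha : ‖a‖ = 1) (h : LeafMid f a) : LeafAff f a := by
  apply slice_affine (fun u => f (a, u))
  · intro u u' hu hu'
    rw [hf.iso _ _ (norm_face ha hu) (norm_face ha hu'), pnrm_sub, sub_self, norm_zero]
    exact max_eq_right (norm_nonneg _)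
  · intro u u' hu hu'
    exact h u u' hu hu'

lemma leafAff_all (hE : InnerDense E) {a : E} (ha : ‖a‖ = 1) : LeafAff f a := by
  apply leafAff_of_mid hf ha
  apply leafMid_of_dense hf ha
  intro ε hε
  obtain ⟨a', h1, h2, h3⟩ := hE a ha ε hε
  exact ⟨a', h1, h2, inner_leafMid hf h1 h3⟩

omit hf in
/-- VL8.  The swapped map.  `‖(p.2, p.1)‖ = ‖p‖` by `Prod.norm_def`, `max_comm`. -/
lemma SphIso.swap (hf : SphIso f) : SphIso (fun p : F × E => f (p.2, p.1)) := by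
  have hn : ∀ p : F × E, ‖((p.2, p.1) : E × F)‖ = ‖p‖ := by
    intro p
    rw [Prod.norm_def, Prod.norm_def, max_comm]
  refine ⟨fun z hz => hf.norm _ (by rw [hn]; exact hz), fun z z' hz hz' => ?_, fun y hy => ?_⟩
  · have := hf.iso (z.2, z.1) (z'.2, z'.1) (by rw [hn]; exact hz) (by rw [hn]; exact hz')
    rw [this]
    exact hn (z - z')
  · obtain ⟨z, hz, hfz⟩ := hf.surj y hy
    refine ⟨(z.2, z.1), ?_, hfz⟩
    rw [Prod.norm_def, max_comm, ← Prod.norm_def]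
    exact hz

lemma sideAff_all (hF : InnerDense F) {s : F} (hs : ‖s‖ = 1) : SideAff f s :=
  leafAff_all (SphIso.swap hf) hF hs

end Vale.Agent.P084
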