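import Vale.Agent.P084.V.Leaf

/-! From leaf affinity in both directions to linearity. -/

namespace Vale.Agent.P084

open Metric Set

set_option linter.unusedSectionVars false

universe u v w

variable {E : Type u} {F : Type v} {W : Type w}
  [NormedAddCommGroup E] [NormedSpace ℝ E] [NormedAddCommGroup F] [NormedSpace ℝ F]
  [NormedAddCommGroup W] [NormedSpace ℝ W]

section selfmap

variable {σ : E × F → E × F} (hσ : SphIso σ)
include hσ

/-- VT3a.  Sketch: let `A` be the linear part of `σ` on the leaf over `a` (`hA`), so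
`σ (a, t • u) = (a, 0) + t • A u` for `|t| ≤ 1` (`hfix a`, `map_smul`).  Put `d = (A u).1`; `‖(A u).2‖ ≤ ‖A u‖ = ‖u‖ ≤ 1`,
`‖d‖ ≤ 1`.  `‖a + d‖ ≤ ‖σ (a, u)‖ = 1`.  `‖σ (a, u) - σ (-a, 0)‖ = ‖(a, u) - (-a, 0)‖ = 2` and `σ (-a, 0) = (-a, 0)`
give `max ‖2 a + d‖ ‖(A u).2‖ = 2`, so `‖a + a + d‖ = 2`, so `‖a + d‖ ≥ 1`.  So `b = a + d` is a unit vector.
Suppose `d ≠ 0` and put `t = ‖d‖ / 2`.  Then `‖σ (a, t • u) - σ (b, 0)‖ = ‖(a, t • u) - (b, 0)‖ = max ‖d‖ (t ‖u‖) = ‖d‖`,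
but the left side is `max ((1 - t) ‖d‖) (t ‖(A u).2‖) < ‖d‖`. -/
lemma fix_fst (hfix : ∀ b : E, ‖b‖ = 1 → σ (b, 0) = (b, 0)) {a : E} (ha : ‖a‖ = 1)
    (hA : LeafAff σ a) {u : F} (hu : ‖u‖ ≤ 1) : (σ (a, u)).1 = a := by
  obtain ⟨A, hAeq, hAn⟩ := hA
  have hnA : ‖A u‖ ≤ 1 := by rw [hAn]; exact hu
  obtain ⟨d, e2, hAu⟩ : ∃ (d : E) (e2 : F), A u = (d, e2) := ⟨(A u).1, (A u).2, rfl⟩
  have hmax : max ‖d‖ ‖e2‖ ≤ 1 := by rw [← pnrm, ← hAu]; exact hnA
  have hd1 : ‖d‖ ≤ 1 := le_trans (le_max_left _ _) hmax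
  have he1 : ‖e2‖ ≤ 1 := le_trans (le_max_right _ _) hmax
  have hσu : σ (a, u) = (a + d, e2) := by
    rw [hAeq u hu, hfix a ha, hAu]; simp
  rw [hσu]
  show a + d = a
  have h1 : ‖a + d‖ ≤ 1 := by
    have := hσ.norm (a, u) (norm_face ha hu)
    rw [hσu, pnrm] at this
    exact this ▸ le_max_left _ _
  have hna : ‖-a‖ = 1 := by rw [norm_neg, ha]
  have h2 : ‖a + d‖ = 1 := by
    have h := hσ.iso (a, u) (-a, 0) (norm_face ha hu) (norm_face hna (by simp))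
    rw [hσu, hfix (-a) hna, pnrm_sub, pnrm_sub] at h
    have h3 : ‖a - -a‖ = 2 := by
      rw [sub_neg_eq_add, ← two_smul ℝ a, norm_smul, ha]; norm_num
    rw [h3, sub_zero, sub_zero, max_eq_left (by linarith : ‖u‖ ≤ 2)] at h
    have h4 : ‖a + d - -a‖ = 2 := by
      rcases max_choice ‖a + d - -a‖ ‖e2‖ with h5 | h5
      · rw [h5] at h; exact h
      · rw [h5] at h; linarith
    have h6 : ‖a + d - -a‖ ≤ ‖a + d‖ + ‖a‖ := by
      rw [sub_neg_eq_add]; exact norm_add_le _ _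
    linarith
  by_contra hne
  have hd0 : d ≠ 0 := fun h0 => hne (by rw [h0, add_zero])
  have hdpos : 0 < ‖d‖ := norm_pos_iff.mpr hd0
  obtain ⟨t, ht⟩ : ∃ t : ℝ, t = ‖d‖ / 2 := ⟨_, rfl⟩
  have ht0 : 0 < t := by rw [ht]; positivity
  have ht1 : t ≤ 1 / 2 := by rw [ht]; linarith
  have htu : ‖t • u‖ ≤ 1 := by
    rw [norm_smul, Real.norm_eq_abs, abs_of_pos ht0]; nlinarith [norm_nonneg u]
  have hσt : σ (a, t • u) = (a + t • d, t • e2) := by
    rw [hAeq _ htu, hfix a ha, map_smul, hAu]; simp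
  have h := hσ.iso (a, t • u) (a + d, 0) (norm_face ha htu) (norm_face h2 (by simp))
  rw [hσt, hfix _ h2, pnrm_sub, pnrm_sub] at h
  have e1 : a + t • d - (a + d) = -((1 - t) • d) := by
    rw [sub_smul, one_smul]; abel
  have e3 : a - (a + d) = -d := by abel
  rw [e1, e3, norm_neg, norm_neg, sub_zero, sub_zero, norm_smul, norm_smul, norm_smul,
    Real.norm_eq_abs, Real.norm_eq_abs, abs_of_pos ht0,
    abs_of_pos (by linarith : (0 : ℝ) < 1 - t)] at h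
  have hL : max ((1 - t) * ‖d‖) (t * ‖e2‖) < ‖d‖ := by
    apply max_lt
    · nlinarith
    · have : t * ‖e2‖ ≤ t := by nlinarith [norm_nonneg e2]
      rw [ht] at this ⊢; linarith
  have hR : ‖d‖ ≤ max ‖d‖ (t * ‖u‖) := le_max_left _ _
  linarith

/-- VT3b.  The same as `fix_fst` with the roles of the two factors exchanged. -/
lemma fix_snd (hfix : ∀ s : F, ‖s‖ = 1 → σ (0, s) = (0, s)) {s : F} (hs : ‖s‖ = 1)
    (hB : SideAff σ s) {x : E} (hx : ‖x‖ ≤ 1) : (σ (x, s)).2 = s := by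
  obtain ⟨B, hB1, hB2⟩ := hB
  have h0 := hfix s hs
  have hσx : σ (x, s) = (0, s) + B x := by rw [hB1 x hx, h0]
  have hBx : ‖B x‖ ≤ 1 := by rw [hB2]; exact hx
  have hp1 : ‖(B x).1‖ ≤ 1 := (norm_fst_le (B x)).trans hBx
  have hd1 : ‖(B x).2‖ ≤ 1 := (norm_snd_le (B x)).trans hBx
  generalize hp : (B x).1 = p at hp1
  generalize hd : (B x).2 = d at hd1
  have hσx' : σ (x, s) = (p, s + d) := by
    rw [hσx, ← hp, ← hd]
    exact Prod.ext (by simp) (by simp)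
  have n1 : ‖σ (x, s)‖ = 1 := hσ.norm _ (norm_side hx hs)
  have hb_le : ‖s + d‖ ≤ 1 := by
    rw [hσx', pnrm] at n1
    exact n1 ▸ le_max_right _ _
  have hns : ‖-s‖ = 1 := by rw [norm_neg]; exact hs
  have hz0 : ‖(0 : E)‖ ≤ 1 := by rw [norm_zero]; exact zero_le_one
  have hiso := hσ.iso (x, s) (0, -s) (norm_side hx hs) (norm_side hz0 hns)
  rw [hfix (-s) hns, hσx', pnrm_sub, pnrm_sub] at hiso
  have h2s : ‖s - -s‖ = 2 := by
    rw [sub_neg_eq_add, ← two_smul ℝ s, norm_smul, hs]; norm_num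
  rw [h2s, sub_zero, sub_zero, max_eq_right (show ‖x‖ ≤ 2 by linarith)] at hiso
  have h3 : ‖s + d - -s‖ = 2 := by
    rcases max_choice ‖p‖ ‖s + d - -s‖ with h | h
    · rw [h] at hiso; linarith
    · rw [h] at hiso; exact hiso
  have hb_ge : 1 ≤ ‖s + d‖ := by
    have h4 : ‖s + d - -s‖ ≤ ‖s + d‖ + ‖-s‖ := norm_sub_le _ _
    linarith
  have hb : ‖s + d‖ = 1 := le_antisymm hb_le hb_ge
  have hd0 : d = 0 := by
    by_contra hne
    have hdpos : 0 < ‖d‖ := norm_pos_iff.mpr hne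
    obtain ⟨t, ht⟩ : ∃ t : ℝ, t = ‖d‖ / 2 := ⟨_, rfl⟩
    have ht0 : 0 < t := by rw [ht]; positivity
    have ht1 : t ≤ 1 / 2 := by linarith
    have htx : ‖t • x‖ ≤ 1 := by
      rw [norm_smul, Real.norm_of_nonneg ht0.le]; nlinarith [norm_nonneg x]
    have hσt : σ (t • x, s) = (t • p, s + t • d) := by
      rw [hB1 _ htx, h0, map_smul, ← hp, ← hd]
      exact Prod.ext (by simp) (by simp)
    have hiso2 := hσ.iso (t • x, s) (0, s + d) (norm_side htx hs) (norm_side hz0 hb)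
    rw [hfix _ hb, hσt, pnrm_sub, pnrm_sub] at hiso2
    have e1 : s + t • d - (s + d) = (t - 1) • d := by rw [sub_smul, one_smul]; abel
    have e2 : s - (s + d) = -d := by abel
    have e3 : ‖t - 1‖ = 1 - t := by
      rw [Real.norm_eq_abs, abs_of_nonpos (by linarith)]; ring
    rw [e1, e2, norm_neg, sub_zero, sub_zero, norm_smul, norm_smul, norm_smul,
      Real.norm_of_nonneg ht0.le, e3] at hiso2
    have hl : max (t * ‖p‖) ((1 - t) * ‖d‖) < ‖d‖ := by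
      apply max_lt
      · nlinarith [norm_nonneg p]
      · nlinarith
    have hr : ‖d‖ ≤ max (t * ‖x‖) ‖d‖ := le_max_right _ _
    linarith
  rw [hσx', hd0, add_zero]

/-- VT3c.  Sketch: let `A` be as in `hA a`; `σ (a, u) = (a, 0) + A u`.  By `fix_fst` `(A u).1 = 0` for
`‖u‖ ≤ 1`.  For a unit vector `s`, `(σ (a, s)).2 = s` by `fix_snd`, so `(A s).2 = s`; by linearity
(`u = ‖u‖ • (‖u‖⁻¹ • u)`) `(A u).2 = u` for all `u`.  `Prod.ext`. -/
lemma fix_face (hfixE : ∀ b : E, ‖b‖ = 1 → σ (b, 0) = (b, 0))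
    (hfixF : ∀ s : F, ‖s‖ = 1 → σ (0, s) = (0, s))
    (hA : ∀ a : E, ‖a‖ = 1 → LeafAff σ a) (hB : ∀ s : F, ‖s‖ = 1 → SideAff σ s)
    {a : E} (ha : ‖a‖ = 1) {u : F} (hu : ‖u‖ ≤ 1) : σ (a, u) = (a, u) := by
  have h1 : (σ (a, u)).1 = a := fix_fst hσ hfixE ha (hA a ha) hu
  obtain ⟨A, hA1, hA2⟩ := hA a ha
  have hs2 : ∀ s : F, ‖s‖ = 1 → (A s).2 = s := by
    intro s hs
    have h := fix_snd hσ hfixF hs (hB s hs) (x := a) ha.le
    rw [hA1 s hs.le, hfixE a ha] at h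
    simpa using h
  have h2 : (A u).2 = u := by
    by_cases hu0 : u = 0
    · subst hu0; simp
    · have hn : ‖u‖ ≠ 0 := norm_ne_zero_iff.mpr hu0
      have hs : ‖(‖u‖⁻¹ • u)‖ = 1 := by
        rw [norm_smul, norm_inv, norm_norm, inv_mul_cancel₀ hn]
      have hu' : u = ‖u‖ • (‖u‖⁻¹ • u) := by
        rw [smul_smul, mul_inv_cancel₀ hn, one_smul]
      have := hs2 _ hs
      calc (A u).2 = (A (‖u‖ • (‖u‖⁻¹ • u))).2 := by rw [← hu']
        _ = ‖u‖ • (A (‖u‖⁻¹ • u)).2 := by rw [map_smul]; rfl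
        _ = ‖u‖ • (‖u‖⁻¹ • u) := by rw [this]
        _ = u := hu'.symm
  apply Prod.ext
  · exact h1
  · rw [hA1 u hu, hfixE a ha]
    simpa using h2

/-- VT3d.  The same as `fix_face` with the roles of the two factors exchanged. -/
lemma fix_side (hfixE : ∀ b : E, ‖b‖ = 1 → σ (b, 0) = (b, 0))
    (hfixF : ∀ s : F, ‖s‖ = 1 → σ (0, s) = (0, s))
    (hA : ∀ a : E, ‖a‖ = 1 → LeafAff σ a) (hB : ∀ s : F, ‖s‖ = 1 → SideAff σ s)
    {s : F} (hs : ‖s‖ = 1) {x : E} (hx : ‖x‖ ≤ 1) : σ (x, s) = (x, s) := by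
  obtain ⟨B, hB1, -⟩ := hB s hs
  have h0 : σ (0, s) = (0, s) := hfixF s hs
  have h2 : (B x).2 = 0 := by
    have h := fix_snd hσ hfixF hs (hB s hs) hx
    rw [hB1 x hx, h0] at h
    simpa using h
  have h1 : ∀ a : E, ‖a‖ = 1 → (B a).1 = a := by
    intro a ha
    have h := fix_fst hσ hfixE ha (hA a ha) (le_of_eq hs)
    rw [hB1 a (le_of_eq ha), h0] at h
    simpa using h
  have h1x : (B x).1 = x := by
    by_cases hx0 : x = 0
    · subst hx0
      simp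
    · have hn : ‖x‖ ≠ 0 := norm_ne_zero_iff.mpr hx0
      have hu : ‖(‖x‖⁻¹ • x)‖ = 1 := by
        rw [norm_smul, norm_inv, norm_norm, inv_mul_cancel₀ hn]
      have h := h1 _ hu
      rw [map_smul] at h
      have h3 : ‖x‖⁻¹ • (B x).1 = ‖x‖⁻¹ • x := by simpa using h
      exact smul_right_injective E (inv_ne_zero hn) h3
  rw [hB1 x hx, h0]
  refine Prod.ext ?_ ?_
  · simp [h1x]
  · simp [h2]

lemma fix_all (hfixE : ∀ b : E, ‖b‖ = 1 → σ (b, 0) = (b, 0))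
    (hfixF : ∀ s : F, ‖s‖ = 1 → σ (0, s) = (0, s))
    (hA : ∀ a : E, ‖a‖ = 1 → LeafAff σ a) (hB : ∀ s : F, ‖s‖ = 1 → SideAff σ s)
    {z : E × F} (hz : ‖z‖ = 1) : σ z = z := by
  obtain ⟨x, u⟩ := z
  have hz' := hz
  rw [pnrm] at hz'
  have hx : ‖x‖ ≤ 1 := hz' ▸ le_max_left _ _
  have hu : ‖u‖ ≤ 1 := hz' ▸ le_max_right _ _
  rcases max_choice ‖x‖ ‖u‖ with h | h
  · exact fix_face hσ hfixE hfixF hA hB (by rw [← hz', h]) hu
  · exact fix_side hσ hfixE hfixF hA hB (by rw [← hz', h]) hx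

end selfmap

section general

variable {Z : Type v} {W' : Type u} [NormedAddCommGroup Z] [NormedSpace ℝ Z]
  [NormedAddCommGroup W'] [NormedSpace ℝ W']

/-- VT4a.  `z ↦ - g (-z)` is again a surjective isometry of the spheres. -/
lemma SphIso.negneg {g : Z → W} (hg : SphIso g) : SphIso (fun z => - g (-z)) := by
  refine ⟨fun z hz => ?_, fun z z' hz hz' => ?_, fun y hy => ?_⟩
  · show ‖- g (-z)‖ = 1
    rw [norm_neg]
    exact hg.norm _ (by rw [norm_neg]; exact hz)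
  · show ‖- g (-z) - - g (-z')‖ = ‖z - z'‖
    have h1 : - g (-z) - - g (-z') = -(g (-z) - g (-z')) := by abel
    have h2 : -z - -z' = -(z - z') := by abel
    rw [h1, norm_neg, hg.iso _ _ (by rw [norm_neg]; exact hz) (by rw [norm_neg]; exact hz'), h2,
      norm_neg]
  · obtain ⟨z, hz, hzy⟩ := hg.surj (-y) (by rw [norm_neg]; exact hy)
    refine ⟨-z, by rw [norm_neg]; exact hz, ?_⟩
    show - g (- -z) = y
    rw [neg_neg, hzy, neg_neg]

/-- VT4b.  Composition. -/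
lemma SphIso.comp' {g : Z → W} (hg : SphIso g) {h : W → W'} (hh : SphIso h) :
    SphIso (fun z => h (g z)) := by
  refine ⟨fun z hz => hh.norm _ (hg.norm z hz), fun z z' hz hz' => ?_, fun y hy => ?_⟩
  · show ‖h (g z) - h (g z')‖ = ‖z - z'‖
    rw [hh.iso _ _ (hg.norm z hz) (hg.norm z' hz'), hg.iso z z' hz hz']
  · obtain ⟨w, hw, rfl⟩ := hh.surj y hy
    obtain ⟨z, hz, rfl⟩ := hg.surj w hw
    exact ⟨z, hz, rfl⟩

end general

variable {f : E × F → W} (hf : SphIso f)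
include hf

/-- VT1.  Sketch: take `A`, `A'` from `hA a`, `hA (-a)` and `B`, `B'` from `hB s`, `hB (-s)`.  The sum
`f (a, s) + f (a, -s) + f (-a, s) + f (-a, -s)` equals `2 f (a, 0) + 2 f (-a, 0)` (leaves over `a`, `-a`;
`map_neg`) and `2 f (0, s) + 2 f (0, -s)` (leaves over `s`, `-s`). -/
lemma kappa (hA : ∀ a : E, ‖a‖ = 1 → LeafAff f a) (hB : ∀ s : F, ‖s‖ = 1 → SideAff f s)
    {a : E} (ha : ‖a‖ = 1) {s : F} (hs : ‖s‖ = 1) :
    f (a, 0) + f (-a, 0) = f (0, s) + f (0, -s) := by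
  obtain ⟨A, hA1, -⟩ := hA a ha
  obtain ⟨A', hA1', -⟩ := hA (-a) (by rw [norm_neg]; exact ha)
  obtain ⟨B, hB1, -⟩ := hB s hs
  obtain ⟨B', hB1', -⟩ := hB (-s) (by rw [norm_neg]; exact hs)
  have hs' : ‖-s‖ ≤ 1 := by rw [norm_neg]; exact hs.le
  have ha' : ‖-a‖ ≤ 1 := by rw [norm_neg]; exact ha.le
  have e1 := hA1 s hs.le
  have e2 := hA1 (-s) hs'
  have e3 := hA1' s hs.le
  have e4 := hA1' (-s) hs'
  have e5 := hB1 a ha.le
  have e6 := hB1 (-a) ha'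
  have e7 := hB1' a ha.le
  have e8 := hB1' (-a) ha'
  rw [map_neg] at e2 e4 e6 e8
  have h1 : (2 : ℝ) • (f (a, 0) + f (-a, 0)) = (2 : ℝ) • (f (0, s) + f (0, -s)) := by
    have l : (2 : ℝ) • (f (a, 0) + f (-a, 0))
        = f (a, s) + f (a, -s) + (f (-a, s) + f (-a, -s)) := by
      rw [e1, e2, e3, e4, two_smul]; abel
    have r : (2 : ℝ) • (f (0, s) + f (0, -s))
        = f (a, s) + f (a, -s) + (f (-a, s) + f (-a, -s)) := by
      rw [e5, e6, e7, e8, two_smul]; abel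
    rw [l, r]
  exact smul_right_injective W (two_ne_zero' ℝ) h1

/-- VT2.  Sketch: suppose `k ≠ 0`; `y = ‖k‖⁻¹ • k = f (x0, u0)` with `‖(x0, u0)‖ = 1` (`hf.surj`); `‖x0‖ = 1` or
`‖u0‖ = 1` (`pnrm`, `max_choice`).  In the first case apply `mf_functional hf` to
`P = ![(x0, u0), (x0, 0)] : Fin 2 → E × F` (`‖P 0 + P 1‖ = max ‖x0 + x0‖ ‖u0 + 0‖ = 2`): `ψ (f (x0, u0)) = 1`,
`ψ (f (x0, 0)) = 1`, `ψ (f (-x0, 0)) = -1` (`-(x0, 0) = (-x0, 0)`), so `ψ k = 0` by `hkE`, but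
`ψ k = ‖k‖ ψ y = ‖k‖`.  In the second case use `![(x0, u0), (0, u0)]` and `hkF`. -/
lemma kappa_zero {k : W} (hkE : ∀ a : E, ‖a‖ = 1 → f (a, 0) + f (-a, 0) = k)
    (hkF : ∀ s : F, ‖s‖ = 1 → f (0, s) + f (0, -s) = k) : k = 0 := by
  by_contra hk
  have hkn : 0 < ‖k‖ := norm_pos_iff.mpr hk
  have hy : ‖(‖k‖⁻¹ • k : W)‖ = 1 := by
    rw [norm_smul, norm_inv, norm_norm, inv_mul_cancel₀ hkn.ne']
  obtain ⟨⟨x0, u0⟩, hz, hfz⟩ := hf.surj _ hy
  have hmax : max ‖x0‖ ‖u0‖ = 1 := by rw [← pnrm]; exact hz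
  have hx1 : ‖x0‖ ≤ 1 := hmax ▸ le_max_left _ _
  have hu1 : ‖u0‖ ≤ 1 := hmax ▸ le_max_right _ _
  have key : ∀ ψ : W →L[ℝ] ℝ, ψ (f (x0, u0)) = 1 → ψ k = 0 → False := by
    intro ψ h1 h2
    rw [hfz, map_smul, h2, smul_zero] at h1
    exact zero_ne_one h1
  rcases max_choice ‖x0‖ ‖u0‖ with h | h
  · have hx : ‖x0‖ = 1 := by rw [← h]; exact hmax
    have hP : ∀ i, ‖(![(x0, u0), (x0, 0)] : Fin 2 → E × F) i‖ = 1 := by
      intro i
      fin_cases i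
      · exact hz
      · show ‖((x0, 0) : E × F)‖ = 1
        rw [pnrm, norm_zero, hx]
        exact max_eq_left zero_le_one
    have hsum : ‖∑ i, (![(x0, u0), (x0, 0)] : Fin 2 → E × F) i‖ = Fintype.card (Fin 2) := by
      rw [Fin.sum_univ_two]
      show ‖((x0, u0) : E × F) + (x0, 0)‖ = _
      rw [Prod.mk_add_mk, pnrm, add_zero, ← two_smul ℝ x0, norm_smul, hx]
      simp only [Fintype.card_fin, Real.norm_eq_abs, abs_two, mul_one, Nat.cast_ofNat]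
      exact max_eq_left (by linarith)
    obtain ⟨ψ, -, hψ⟩ := mf_functional hf _ hP hsum
    have h0 := (hψ 0).1
    have h1 := hψ 1
    refine key ψ h0 ?_
    rw [← hkE x0 hx, map_add]
    have e1 : ψ (f (x0, 0)) = 1 := h1.1
    have e2 : ψ (f (-x0, 0)) = -1 := by
      have := h1.2
      have e : -((![(x0, u0), (x0, 0)] : Fin 2 → E × F) 1) = (-x0, 0) := by
        show -((x0, 0) : E × F) = (-x0, 0)
        rw [Prod.neg_mk, neg_zero]
      rwa [e] at this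
    rw [e1, e2]; norm_num
  · have hu : ‖u0‖ = 1 := by rw [← h]; exact hmax
    have hP : ∀ i, ‖(![(x0, u0), (0, u0)] : Fin 2 → E × F) i‖ = 1 := by
      intro i
      fin_cases i
      · exact hz
      · show ‖((0, u0) : E × F)‖ = 1
        rw [pnrm, norm_zero, hu]
        exact max_eq_right zero_le_one
    have hsum : ‖∑ i, (![(x0, u0), (0, u0)] : Fin 2 → E × F) i‖ = Fintype.card (Fin 2) := by
      rw [Fin.sum_univ_two]
      show ‖((x0, u0) : E × F) + (0, u0)‖ = _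
      rw [Prod.mk_add_mk, pnrm, add_zero, ← two_smul ℝ u0, norm_smul, hu]
      simp only [Fintype.card_fin, Real.norm_eq_abs, abs_two, mul_one, Nat.cast_ofNat]
      exact max_eq_right (by linarith)
    obtain ⟨ψ, -, hψ⟩ := mf_functional hf _ hP hsum
    have h0 := (hψ 0).1
    have h1 := hψ 1
    refine key ψ h0 ?_
    rw [← hkF u0 hu, map_add]
    have e1 : ψ (f (0, u0)) = 1 := h1.1
    have e2 : ψ (f (0, -u0)) = -1 := by
      have := h1.2
      have e : -((![(x0, u0), (0, u0)] : Fin 2 → E × F) 1) = (0, -u0) := by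
        show -((0, u0) : E × F) = (0, -u0)
        rw [Prod.neg_mk, neg_zero]
      rwa [e] at this
    rw [e1, e2]; norm_num

lemma poles (hEn : ∃ e : E, ‖e‖ = 1) (hFn : ∃ s : F, ‖s‖ = 1)
    (hA : ∀ a : E, ‖a‖ = 1 → LeafAff f a) (hB : ∀ s : F, ‖s‖ = 1 → SideAff f s) :
    (∀ a : E, ‖a‖ = 1 → f (a, 0) + f (-a, 0) = 0) ∧
      ∀ s : F, ‖s‖ = 1 → f (0, s) + f (0, -s) = 0 := by
  obtain ⟨a0, ha0⟩ := hEn
  obtain ⟨s0, hs0⟩ := hFn
  have hkE : ∀ a : E, ‖a‖ = 1 → f (a, 0) + f (-a, 0) = f (0, s0) + f (0, -s0) :=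
    fun a ha => kappa hf hA hB ha hs0
  have hkF : ∀ s : F, ‖s‖ = 1 → f (0, s) + f (0, -s) = f (0, s0) + f (0, -s0) :=
    fun s hs => by rw [← kappa hf hA hB ha0 hs, kappa hf hA hB ha0 hs0]
  have h0 := kappa_zero hf hkE hkF
  exact ⟨fun a ha => by rw [hkE a ha, h0], fun s hs => by rw [hkF s hs, h0]⟩

/-- VT4.  `f` is odd.  Sketch: `f₋ z = - f (-z)` is a `SphIso` (`SphIso.negneg`); take its inverse `g`
(`SphIso.exists_inv`: `g (f₋ x) = x`, `f₋ (g y) = y` on the spheres) and `σ z = g (f z)`, a `SphIso` of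
`E × F` to itself (`SphIso.comp'`).  By `poles` (with `leafAff_all hf hE`, `sideAff_all hf hF`)
`f (b, 0) = - f (-b, 0) = f₋ (b, 0)` (`-(b, 0) = (-b, 0)`), so `σ (b, 0) = (b, 0)`; likewise `σ (0, s) = (0, s)`.
`fix_all` (with `leafAff_all hσ hE`, `sideAff_all hσ hF`) gives `g (f z) = z`, so
`f z = f₋ (g (f z)) = f₋ z = - f (-z)`. -/
lemma odd_all (hEn : ∃ e : E, ‖e‖ = 1) (hFn : ∃ s : F, ‖s‖ = 1)
    (hE : InnerDense E) (hF : InnerDense F) {z : E × F} (hz : ‖z‖ = 1) : f (-z) = - f z := by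
  have hfm : SphIso (fun z : E × F => - f (-z)) := SphIso.negneg hf
  obtain ⟨g, hg, hgf, hfg⟩ := hfm.exists_inv
  have hσ : SphIso (fun z : E × F => g (f z)) := SphIso.comp' hf hg
  obtain ⟨hpE, hpF⟩ := poles hf hEn hFn (fun a ha => leafAff_all hf hE ha)
    (fun s hs => sideAff_all hf hF hs)
  have hfixE : ∀ b : E, ‖b‖ = 1 → g (f (b, 0)) = (b, 0) := by
    intro b hb
    have h3 : -((b, 0) : E × F) = (-b, 0) := by simp
    have h1 : f (b, 0) = - f (-((b, 0) : E × F)) := by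
      rw [h3]
      exact eq_neg_of_add_eq_zero_left (hpE b hb)
    rw [h1]
    exact hgf (b, 0) (norm_face hb (by rw [norm_zero]; exact zero_le_one))
  have hfixF : ∀ s : F, ‖s‖ = 1 → g (f (0, s)) = (0, s) := by
    intro s hs
    have h3 : -((0, s) : E × F) = (0, -s) := by simp
    have h1 : f (0, s) = - f (-((0, s) : E × F)) := by
      rw [h3]
      exact eq_neg_of_add_eq_zero_left (hpF s hs)
    rw [h1]
    exact hgf (0, s) (norm_side (by rw [norm_zero]; exact zero_le_one) hs)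
  have hfix : g (f z) = z := fix_all hσ hfixE hfixF (fun a ha => leafAff_all hσ hE ha)
    (fun s hs => sideAff_all hσ hF hs) hz
  have h4 : - f (- g (f z)) = f z := hfg (f z) (hf.norm z hz)
  rw [hfix] at h4
  rw [← h4, neg_neg]

/-- VT5.  Every unit vector of `E` is a good point.  Sketch: `A` from `hA`, and for a unit vector `s`
take `B` from `hB s`, `B'` from `hB (-s)`.  Corners: `f (a, s) = f (a, 0) + A s = f (0, s) + B a`,
`f (a, -s) = f (a, 0) - A s = f (0, -s) + B' a`.  Oddness: `f (0, -s) = - f (0, s)` and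
`f (a, -s) = - f (-a, s) = - (f (0, s) - B a)`, so `B' a = B a`.  Adding and subtracting:
`f (a, 0) = B a`, `A s = f (0, s)`.  So `f (t • a, s) = f (0, s) + t • B a = t • f (a, 0) + A s`. -/
lemma good_of_odd (hodd : ∀ z : E × F, ‖z‖ = 1 → f (-z) = - f z)
    (hB : ∀ s : F, ‖s‖ = 1 → SideAff f s) {a : E} (ha : ‖a‖ = 1) (hA : LeafAff f a) :
    GoodPt f a := by
  obtain ⟨A, hA1, hA2⟩ := hA
  refine ⟨A, hA2, hA1, ?_⟩
  intro t s ht0 ht1 hs
  obtain ⟨B, hB1, hB2⟩ := hB s hs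
  have c1 : f (a, s) = f (a, 0) + A s := hA1 s hs.le
  have c2 : f (a, s) = f (0, s) + B a := hB1 a ha.le
  have c3 : f (a, -s) = f (a, 0) + A (-s) := hA1 (-s) (by rw [norm_neg]; exact hs.le)
  have c4 : f (-a, s) = f (0, s) + B (-a) := hB1 (-a) (by rw [norm_neg]; exact ha.le)
  have c5 : f (a, -s) = - f (-a, s) := by
    have h := hodd (-a, s) (by rw [pnrm]; simp [ha, hs])
    simpa using h
  have c6 : f (t • a, s) = f (0, s) + B (t • a) :=
    hB1 (t • a) (by rw [norm_smul, ha]; simp [abs_of_pos ht0, ht1.le])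
  rw [map_neg] at c3 c4
  rw [c6, map_smul]
  have h1 : f (a, 0) + A s = f (0, s) + B a := c1.symm.trans c2
  have h2 : f (a, 0) + -A s = -(f (0, s) + -B a) := by rw [← c3, c5, c4]
  linear_combination (norm := module) (-(1/2:ℝ) - t/2) • h1 + ((1/2:ℝ) - t/2) • h2

theorem inner_raw (hEn : ∃ e : E, ‖e‖ = 1) (hFn : ∃ s : F, ‖s‖ = 1)
    (hE : InnerDense E) (hF : InnerDense F) :
    ∃ T : E × F →L[ℝ] W, ∀ z, ‖z‖ = 1 → T z = f z := by
  apply asm_raw hEn hFn hf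
  intro x hx ε hε
  exact ⟨x, hx, by simpa using hε,
    good_of_odd hf (fun z hz => odd_all hf hEn hFn hE hF hz) (fun s hs => sideAff_all hf hF hs) hx
      (leafAff_all hf hE hx)⟩

omit hf in
theorem inner_mup (E : Type u) (F : Type v) [NormedAddCommGroup E] [NormedSpace ℝ E]
    [NormedAddCommGroup F] [NormedSpace ℝ F] [Nontrivial E] [Nontrivial F]
    (hE : InnerDense E) (hF : InnerDense F) :
    MazurUlamProperty.{max u v, w} (E × F) := by
  intro Y _ _ f hf hs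
  obtain ⟨e, he⟩ := exists_norm_eq E (zero_le_one' ℝ)
  obtain ⟨s, hs'⟩ := exists_norm_eq F (zero_le_one' ℝ)
  exact equiv_of_raw (fun g hg => inner_raw hg ⟨e, he⟩ ⟨s, hs'⟩ hE hF) f hf hs

end Vale.Agent.P084
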